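import Vale.Agent.P097.H560.Full
import Vale.Agent.P097.H226.W.Defs2

/-!
# P097 / block (W), row W-INST: the world `A5.W5` in straight coordinates (`H226.W.Inst`)

The geometric half is helper560's `wide_unif`.
-/

set_option linter.all false

open Complex Metric Filter Topology Set MeasureTheory
open scoped ComplexConjugate

namespace Vale.Agent.P097.H320.W

open Vale.Agent.P097 Vale.Agent.P097.H85 Vale.Agent.P097.H929 Vale.Agent.P097.TC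
  Vale.Agent.P097.H226.W Vale.Agent.P097.A5

theorem grw_of {H : ℝ} {F q : ℂ → ℂ} (h : Gro H F q) : Grw H F q := by
  intro a ha
  obtain ⟨C, hC, h1⟩ := h a ha
  exact ⟨C, h1⟩

/-- straight coordinates at the real centre `v`, real part `x`, unit = `ρ` -/
noncomputable def Sc (Ψ : ℂ → ℂ) (x v ρ : ℝ) (z : ℂ × ℂ) : ℂ × ℂ :=
  ((x : ℂ) + ρ * z.1 + Ψ ((v : ℂ) + ρ * z.2), (v : ℂ) + ρ * z.2)

theorem StM_eq (P : ℝ → ℂ) (Ψ : ℂ → ℂ) (y u ρ : ℝ) : StM P Ψ y u ρ = Sc Ψ (y - (P u).re) u ρ := rfl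

/-- **the straight coordinates at a label `u` stay in the domains** -/
theorem StM_mem {Mj Mk : Set (ℂ × ℂ)} {b m : ℝ} {Ψ : ℂ → ℂ} {A : Set ℝ} {P : ℝ → ℂ} {c k : ℝ → ℝ}
    (hMk : RH b Mk) (hj : CmpU Mj b m Ψ A P c k) (hk : CmpU Mk b m Ψ A P c k) (hbm : b < m)
    {y₀ u₀ s' : ℝ} (hR : RegB Mk b A P c y₀ u₀ s') {γ : ℝ} (hγ : 0 < γ) :
    ∃ d > 0, ∃ ρ₀ > 0, ∀ u ∈ A, |u - u₀| < d → ∀ y : ℝ, |y - y₀| < d → ∀ ρ : ℝ, 0 < ρ → ρ ≤ ρ₀ →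
      (∀ z ∈ Bx 1, 0 < z.2.im → DifferentiableAt ℂ (StM P Ψ y u ρ) z ∧
        (StM P Ψ y u ρ z).2.im = ρ * z.2.im) ∧
      (∀ δ : ℝ, δ ≤ s' - k u - γ → ∀ z ∈ Bx 1 ∩ H226.W.Wd δ, StM P Ψ y u ρ z ∈ Mk) ∧
      ∀ z ∈ Bx 1 ∩ Qu, StM P Ψ y u ρ z ∈ Mj ∩ Mk := by
  obtain ⟨d, hd, h1⟩ := H560.wide_unif hMk hk hbm hR hγ
  obtain ⟨ρ₁, hρ₁, h2⟩ := hj.cmp 1 one_pos 1 one_pos
  obtain ⟨ρ₂, hρ₂, h3⟩ := hk.cmp 1 one_pos 1 one_pos
  obtain ⟨ρ₀, hρ₀, g1, g2, g3, g4⟩ : ∃ ρ₀ > 0, ρ₀ < ρ₁ ∧ ρ₀ < ρ₂ ∧ ρ₀ < d ∧ ρ₀ < m - b := by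
    have : 0 < m - b := by linarith
    refine ⟨min (min (ρ₁ / 2) (ρ₂ / 2)) (min (d / 2) ((m - b) / 2)), by positivity, ?_, ?_, ?_, ?_⟩
    · have := (min_le_left (min (ρ₁ / 2) (ρ₂ / 2)) (min (d / 2) ((m - b) / 2))).trans (min_le_left _ _)
      linarith
    · have := (min_le_left (min (ρ₁ / 2) (ρ₂ / 2)) (min (d / 2) ((m - b) / 2))).trans (min_le_right _ _)
      linarith
    · have := (min_le_right (min (ρ₁ / 2) (ρ₂ / 2)) (min (d / 2) ((m - b) / 2))).trans (min_le_left _ _)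
      linarith
    · have := (min_le_right (min (ρ₁ / 2) (ρ₂ / 2)) (min (d / 2) ((m - b) / 2))).trans (min_le_right _ _)
      linarith
  refine ⟨d, hd, ρ₀, hρ₀, ?_⟩
  intro u hu hud y hyd ρ hρ hρρ
  have e2 : ∀ z : ℂ × ℂ, ((u : ℂ) + (ρ : ℂ) * z.2).re = u + ρ * z.2.re := fun z => by simp
  have e3 : ∀ z : ℂ × ℂ, ((u : ℂ) + (ρ : ℂ) * z.2).im = ρ * z.2.im := fun z => by simp
  have hlt : ∀ {x : ℝ}, |x| < 1 → ρ * |x| < ρ₀ := by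
    intro x hx
    have : ρ * |x| < ρ * 1 := mul_lt_mul_of_pos_left hx hρ
    linarith
  have b1 : ∀ z ∈ Bx 1, |((u : ℂ) + (ρ : ℂ) * z.2).re - u| < ρ₀ := by
    intro z hz
    rw [e2, add_sub_cancel_left, abs_mul, abs_of_pos hρ]
    exact hlt hz.2.2.1
  have b2 : ∀ z : ℂ × ℂ, 0 < z.2.im → 0 < ((u : ℂ) + (ρ : ℂ) * z.2).im := by
    intro z hz
    rw [e3]; positivity
  have b3 : ∀ z ∈ Bx 1, ((u : ℂ) + (ρ : ℂ) * z.2).im < ρ₀ := by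
    intro z hz
    rw [e3]
    have h4 := hlt hz.2.2.2
    have h5 : ρ * z.2.im ≤ ρ * |z.2.im| := mul_le_mul_of_nonneg_left (le_abs_self _) hρ.le
    linarith
  have t1 : ∀ z : ℂ × ℂ, (StM P Ψ y u ρ z).1.im = ρ * z.1.im + (Ψ ((u : ℂ) + (ρ : ℂ) * z.2)).im := by
    intro z
    show ((((y - (P u).re : ℝ) : ℂ) + (ρ : ℂ) * z.1 + Ψ ((u : ℂ) + (ρ : ℂ) * z.2))).im = _
    rw [add_im, add_im, ofReal_im, zero_add]
    simp
  have t2 : ∀ z : ℂ × ℂ, ((StM P Ψ y u ρ z).1 - Ψ ((u : ℂ) + (ρ : ℂ) * z.2)).re =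
      y - (P u).re + ρ * z.1.re := by
    intro z
    show ((((y - (P u).re : ℝ) : ℂ) + (ρ : ℂ) * z.1 + Ψ ((u : ℂ) + (ρ : ℂ) * z.2)) -
      Ψ ((u : ℂ) + (ρ : ℂ) * z.2)).re = _
    rw [add_sub_cancel_right, add_re, ofReal_re]
    simp
  have t3 : ∀ z ∈ Bx 1, 0 < z.2.im → b < (StM P Ψ y u ρ z).1.im := by
    intro z hz hz0
    rw [t1]
    have h4 := (h3 u hu).bdd _ ((b1 z hz).trans g2) (b2 z hz0) ((b3 z hz).trans g2)
    have h5 := hlt hz.2.1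
    have h6 : ρ * (-|z.1.im|) ≤ ρ * z.1.im := mul_le_mul_of_nonneg_left (neg_abs_le _) hρ.le
    linarith
  refine ⟨?_, ?_, ?_⟩
  · intro z hz hz0
    refine ⟨?_, e3 z⟩
    have hΨ : DifferentiableAt ℂ Ψ ((u : ℂ) + (ρ : ℂ) * z.2) :=
      ((h3 u hu).hol).differentiableAt ((isOpen_box u ρ₂).mem_nhds
        ⟨(b1 z hz).trans g2, b2 z hz0, (b3 z hz).trans g2⟩)
    have hl : DifferentiableAt ℂ (fun z : ℂ × ℂ => (u : ℂ) + (ρ : ℂ) * z.2) z := by fun_prop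
    have h5 : DifferentiableAt ℂ (fun z : ℂ × ℂ => Ψ ((u : ℂ) + (ρ : ℂ) * z.2)) z :=
      DifferentiableAt.comp z (f := fun z : ℂ × ℂ => (u : ℂ) + (ρ : ℂ) * z.2) hΨ hl
    have h6 : DifferentiableAt ℂ (fun z : ℂ × ℂ => ((y - (P u).re : ℝ) : ℂ) + (ρ : ℂ) * z.1) z := by
      fun_prop
    exact (h6.add h5).prodMk hl
  · rintro δ hδ z ⟨hz, hz0, hz1⟩
    apply h1 u hu hud y hyd
    · exact (b1 z hz).trans g3
    · exact b2 z hz0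
    · exact (b3 z hz).trans g3
    · show |((StM P Ψ y u ρ z).1 - Ψ ((u : ℂ) + (ρ : ℂ) * z.2)).re - (y - (P u).re)| < d
      rw [t2, add_sub_cancel_left, abs_mul, abs_of_pos hρ]
      exact (hlt hz.1).trans g3
    · exact t3 z hz hz0
    · show (StM P Ψ y u ρ z).1.im < (Ψ ((u : ℂ) + (ρ : ℂ) * z.2)).im +
        (s' - k u - γ) * ((u : ℂ) + (ρ : ℂ) * z.2).im
      rw [t1, e3]
      have h4 : δ * z.2.im ≤ (s' - k u - γ) * z.2.im := mul_le_mul_of_nonneg_right hδ hz0.le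
      have h5 : ρ * z.1.im < ρ * ((s' - k u - γ) * z.2.im) :=
        mul_lt_mul_of_pos_left (lt_of_lt_of_le hz1 h4) hρ
      have h6 : ρ * ((s' - k u - γ) * z.2.im) = (s' - k u - γ) * (ρ * z.2.im) := by ring
      linarith
  · rintro z ⟨hz, hz1, hz0⟩
    have h7 : (StM P Ψ y u ρ z).1.im < (Ψ ((u : ℂ) + (ρ : ℂ) * z.2)).im := by
      rw [t1]
      have : ρ * z.1.im < 0 := mul_neg_of_pos_of_neg hρ hz1
      linarith
    exact ⟨(h2 u hu).base _ _ ((b1 z hz).trans g1) (b2 z hz0) ((b3 z hz).trans g1)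
        (t3 z hz hz0) h7,
      (h3 u hu).base _ _ ((b1 z hz).trans g2) (b2 z hz0) ((b3 z hz).trans g2)
        (t3 z hz hz0) h7⟩

/-- **row W-INST** -/
theorem inst : H226.W.Inst := by
  intro Λ H F q b m Ψ Mj Mk B A P c k K y₀ u₀ σ s al p th J W γ hγ
  obtain ⟨d, hd, ρ₀, hρ₀, h⟩ := StM_mem W.rhk W.Uj W.Uk W.bm (W.regk (γ / 2) (half_pos hγ))
    (half_pos hγ)
  refine ⟨min d ρ₀, lt_min hd hρ₀, ?_⟩
  intro u hu hud y hyd ρ hρ hρρ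
  obtain ⟨h1, h2, h3⟩ := h u hu (lt_of_lt_of_le hud (min_le_left _ _)) y
    (lt_of_lt_of_le hyd (min_le_left _ _)) ρ hρ (hρρ.trans (min_le_right _ _))
  have h4 : ∀ z ∈ Bx 1 ∩ Qu, StM P Ψ y u ρ z ∈ Dm Mj Mk := by
    rintro z ⟨hz, hz1, hz0⟩
    refine ⟨h3 z ⟨hz, hz1, hz0⟩, ?_⟩
    intro hh
    have h5 := (h1 z hz hz0).2
    have h6 : (StM P Ψ y u ρ z).2 = 0 := hh
    rw [h6, zero_im] at h5
    have := mul_pos hρ hz0
    linarith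
  have hOj : IsOpen Mj := W.rhj.dn.op
  have hOk : IsOpen Mk := W.rhk.dn.op
  have hO : IsOpen (Dm Mj Mk) := (hOj.inter hOk).inter (isOpen_ne.preimage continuous_snd)
  have hsq : SQ Λ H F q 1 (fun z => al (StM P Ψ y u ρ z)) (fun z => p (StM P Ψ y u ρ z))
      (fun z => th (StM P Ψ y u ρ z)) := by
    refine ⟨W.crv.cv, grw_of W.crv.gro, ?_, ?_, ?_, fun z hz => W.mem _ (h4 z hz),
      fun z hz => W.inc _ (h4 z hz), fun z hz => W.smp _ (h4 z hz)⟩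
    · rintro z ⟨hz, hz1, hz0⟩
      exact (DifferentiableAt.comp z (W.dal.differentiableAt (hOk.mem_nhds
        (h3 z ⟨hz, hz1, hz0⟩).2)) (h1 z hz hz0).1).differentiableWithinAt
    · rintro z ⟨hz, hz1, hz0⟩
      exact (DifferentiableAt.comp z (W.dp.differentiableAt (hOk.mem_nhds
        (h3 z ⟨hz, hz1, hz0⟩).2)) (h1 z hz hz0).1).differentiableWithinAt
    · rintro z ⟨hz, hz1, hz0⟩
      exact (DifferentiableAt.comp z (W.dth.differentiableAt (hO.mem_nhds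
        (h4 z ⟨hz, hz1, hz0⟩))) (h1 z hz hz0).1).differentiableWithinAt
  refine ⟨hsq, ?_⟩
  intro δ hδ hδs
  have hδs' : δ ≤ s - γ / 2 - k u - γ / 2 := by linarith
  refine ⟨hsq, hδ, ?_, ?_⟩
  · rintro z ⟨hz, hz0, hz1⟩
    exact (DifferentiableAt.comp z (W.dal.differentiableAt (hOk.mem_nhds
      (h2 δ hδs' z ⟨hz, hz0, hz1⟩))) (h1 z hz hz0).1).differentiableWithinAt
  · rintro z ⟨hz, hz0, hz1⟩
    exact (DifferentiableAt.comp z (W.dp.differentiableAt (hOk.mem_nhds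
      (h2 δ hδs' z ⟨hz, hz0, hz1⟩))) (h1 z hz hz0).1).differentiableWithinAt

end Vale.Agent.P097.H320.W
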