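import Vale.Agent.P097.H560.Gen
import Vale.Agent.P097.H320.W5.StInst

/-!
# P097 / straight line of block (T): the world `A5.W5` in straight coordinates at ANY real centre
-/

set_option linter.all false

open Complex Metric Filter Topology Set MeasureTheory
open scoped ComplexConjugate

namespace Vale.Agent.P097.H320.W

open Vale.Agent.P097 Vale.Agent.P097.H85 Vale.Agent.P097.H929 Vale.Agent.P097.TC
  Vale.Agent.P097.H226.W Vale.Agent.P097.A5 Vale.Agent.P097.H560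

/-- **the world in straight coordinates at any real centre `(x, v)`** : the quadrant world, and the
wide world for all `δ ≤ s - k u₀ - γ` -/
theorem sw5_gen {Λ H : ℝ} {F q : ℂ → ℂ} {b m : ℝ} {Ψ : ℂ → ℂ} {Mj Mk B : Set (ℂ × ℂ)}
    {A : Set ℝ} {P : ℝ → ℂ} {c k : ℝ → ℝ} {K y₀ u₀ σ s : ℝ} {al p th : ℂ × ℂ → ℂ} {J : ℂ → ℂ}
    (W : W5 Λ H F q b m Ψ Mj Mk B A P c k K y₀ u₀ σ s al p th J) {γ : ℝ} (hγ : 0 < γ) :
    ∃ d : ℝ, 0 < d ∧ ∀ v : ℝ, |v - u₀| < d → ∀ x : ℝ, |x - (y₀ - (P u₀).re)| < d →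
      ∀ ρ : ℝ, 0 < ρ → ρ ≤ d →
      (∀ z ∈ Bx 1 ∩ Qu, Sx Ψ x v ρ z ∈ Dm Mj Mk) ∧
      SQ Λ H F q 1 (al ∘ Sx Ψ x v ρ) (p ∘ Sx Ψ x v ρ) (th ∘ Sx Ψ x v ρ) ∧
      ∀ δ : ℝ, 0 < δ → δ ≤ s - k u₀ - γ →
        (∀ z ∈ Bx 1 ∩ H226.W.Wd δ, Sx Ψ x v ρ z ∈ Mk) ∧
        SW Λ H F q δ 1 (al ∘ Sx Ψ x v ρ) (p ∘ Sx Ψ x v ρ) (th ∘ Sx Ψ x v ρ) := by
  obtain ⟨d, hd, ρ₀, hρ₀, h⟩ := Sx_mem W.rhk W.Uj W.Uk W.bm W.u0 (W.regk (γ / 2) (half_pos hγ))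
    (half_pos hγ)
  refine ⟨min d ρ₀, lt_min hd hρ₀, ?_⟩
  intro v hvd x hxd ρ hρ hρρ
  obtain ⟨h1, h2, h3⟩ := h v (lt_of_lt_of_le hvd (min_le_left _ _)) x
    (lt_of_lt_of_le hxd (min_le_left _ _)) ρ hρ (hρρ.trans (min_le_right _ _))
  have h4 : ∀ z ∈ Bx 1 ∩ Qu, Sx Ψ x v ρ z ∈ Dm Mj Mk := by
    rintro z ⟨hz, hz1, hz0⟩
    refine ⟨h3 z ⟨hz, hz1, hz0⟩, ?_⟩
    intro hh
    have h5 := (h1 z hz hz0).2.1
    have h6 : (Sx Ψ x v ρ z).2 = 0 := hh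
    rw [h6, zero_im] at h5
    have := mul_pos hρ hz0
    linarith
  have hOj : IsOpen Mj := W.rhj.dn.op
  have hOk : IsOpen Mk := W.rhk.dn.op
  have hO : IsOpen (Dm Mj Mk) := (hOj.inter hOk).inter (isOpen_ne.preimage continuous_snd)
  have hsq : SQ Λ H F q 1 (al ∘ Sx Ψ x v ρ) (p ∘ Sx Ψ x v ρ) (th ∘ Sx Ψ x v ρ) := by
    refine ⟨W.crv.cv, grw_of W.crv.gro, ?_, ?_, ?_, fun z hz => W.mem _ (h4 z hz),
      fun z hz => W.inc _ (h4 z hz), fun z hz => W.smp _ (h4 z hz)⟩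
    · rintro z ⟨hz, hz1, hz0⟩
      exact (DifferentiableAt.comp z (W.dal.differentiableAt (hOk.mem_nhds
        (h3 z ⟨hz, hz1, hz0⟩).2)) (h1 z hz hz0).1).differentiableWithinAt
    · rintro z ⟨hz, hz1, hz0⟩
      exact (DifferentiableAt.comp z (W.dp.differentiableAt (hOk.mem_nhds
        (h3 z ⟨hz, hz1, hz0⟩).2)) (h1 z hz hz0).1).differentiableWithinAt
    · rintro z ⟨hz, hz1, hz0⟩
      exact (DifferentiableAt.comp z (W.dth.differentiableAt (hO.mem_nhds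
        (h4 z ⟨hz, hz1, hz0⟩))) (h1 z hz hz0).1).differentiableWithinAt
  refine ⟨h4, hsq, ?_⟩
  intro δ hδ hδs
  have hδs' : δ ≤ s - γ / 2 - k u₀ - γ / 2 := by linarith
  refine ⟨h2 δ hδs', hsq, hδ, ?_, ?_⟩
  · rintro z ⟨hz, hz0, hz1⟩
    exact (DifferentiableAt.comp z (W.dal.differentiableAt (hOk.mem_nhds
      (h2 δ hδs' z ⟨hz, hz0, hz1⟩))) (h1 z hz hz0).1).differentiableWithinAt
  · rintro z ⟨hz, hz0, hz1⟩
    exact (DifferentiableAt.comp z (W.dp.differentiableAt (hOk.mem_nhds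
      (h2 δ hδs' z ⟨hz, hz0, hz1⟩))) (h1 z hz hz0).1).differentiableWithinAt

end Vale.Agent.P097.H320.W
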