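import Vale.Agent.P097.TC.Defs

/-!
# P097 / case [c] / W5 instance: simple roots on the continuation domain from the area law
-/

set_option linter.all false

open Complex Metric Filter Topology Set MeasureTheory
open scoped ComplexConjugate

namespace Vale.Agent.P097.H320.W5

open Vale.Agent.P097.TC

theorem isOpen_Sb (b : ℝ) : IsOpen (Sb b) :=
  isOpen_lt (continuous_abs.comp Complex.continuous_im) continuous_const

section
variable {Λ b : ℝ} {F q : ℂ → ℂ}

theorem cv_derivs (hC : Cv Λ b F q) {x : ℂ} (hx : x ∈ Sb b) :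
    HasDerivAt F (deriv F x) x ∧ HasDerivAt (deriv F) (deriv (deriv F) x) x ∧
      HasDerivAt q (deriv q x) x ∧ HasDerivAt (deriv q) (deriv (deriv q) x) x := by
  have hn : Sb b ∈ 𝓝 x := (isOpen_Sb b).mem_nhds hx
  have h1 : AnalyticAt ℂ F x := hC.dF.analyticAt hn
  have h2 : AnalyticAt ℂ q x := hC.dq.analyticAt hn
  exact ⟨h1.differentiableAt.hasDerivAt, h1.deriv.differentiableAt.hasDerivAt,
    h2.differentiableAt.hasDerivAt, h2.deriv.differentiableAt.hasDerivAt⟩

/-- derivative of the incidence function in `x` -/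
theorem hasDerivAt_Mi (hC : Cv Λ b F q) {a p x : ℂ} (hx : x ∈ Sb b) :
    HasDerivAt (Mi F q a p) (deriv (deriv F) x * (q x * cos (a - F x) - p) +
      deriv F x ^ 2 * q x * sin (a - F x) + deriv (deriv q) x * sin (a - F x)) x := by
  obtain ⟨h1, h2, h3, h4⟩ := cv_derivs hC hx
  have h5 : HasDerivAt (fun y => a - F y) (-deriv F x) x := by
    simpa using h1.const_sub a
  have h6 := (h2.mul ((h3.mul h5.ccos).sub_const p)).add (h4.mul h5.csin)
  refine h6.congr_deriv ?_
  simp only [Pi.mul_apply, Function.comp]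
  ring

/-- `F' Mi' = Λ³ sin δ` at a root -/
theorem mul_deriv_Mi (hC : Cv Λ b F q) {a p x : ℂ} (hx : x ∈ Sb b) (h : Mi F q a p x = 0) :
    deriv F x * deriv (Mi F q a p) x = (Λ : ℂ) ^ 3 * sin (a - F x) := by
  rw [(hasDerivAt_Mi hC hx).deriv]
  have h1 := hC.wr x hx
  rw [Mi] at h
  linear_combination deriv (deriv F) x * h + sin (a - F x) * h1

/-- derivative of the incidence function along a curve -/
theorem hasDerivAt_inc (hC : Cv Λ b F q) {A P T : ℂ → ℂ} {A' P' T' s : ℂ} (hT : T s ∈ Sb b)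
    (hA : HasDerivAt A A' s) (hP : HasDerivAt P P' s) (hT' : HasDerivAt T T' s) :
    HasDerivAt (fun y => Mi F q (A y) (P y) (T y))
      ((deriv q (T s) * cos (A s - F (T s)) - deriv F (T s) * q (T s) * sin (A s - F (T s))) * A' -
        deriv F (T s) * P' + deriv (Mi F q (A s) (P s)) (T s) * T') s := by
  obtain ⟨h1, h2, h3, h4⟩ := cv_derivs hC hT
  rw [(hasDerivAt_Mi hC hT).deriv]
  have k1 := h1.comp s hT'
  have k2 := h2.comp s hT'
  have k3 := h3.comp s hT'
  have k4 := h4.comp s hT'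
  have h5 : HasDerivAt (fun y => A y - F (T y)) (A' - deriv F (T s) * T') s := hA.sub k1
  have h6 := (k2.mul ((k3.mul h5.ccos).sub hP)).add (k4.mul h5.csin)
  have h7 : HasDerivAt (fun y => Mi F q (A y) (P y) (T y)) _ s := h6
  refine h7.congr_deriv ?_
  simp only [Pi.mul_apply, Function.comp, Pi.sub_apply]
  ring

/-- **simple roots from the area law** -/
theorem smp_of_area (hC : Cv Λ b F q) {al p th : ℂ × ℂ → ℂ} {z : ℂ × ℂ}
    (hal : DifferentiableAt ℂ al z) (hp : DifferentiableAt ℂ p z) (hth : DifferentiableAt ℂ th z)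
    (hm : th z ∈ Sb b) (hinc : ∀ᶠ y in 𝓝 z, Mi F q (al y) (p y) (th y) = 0)
    (har : fderiv ℂ al z (1, 0) * fderiv ℂ p z (0, 1) -
      fderiv ℂ al z (0, 1) * fderiv ℂ p z (1, 0) ≠ 0) :
    deriv (Mi F q (al z) (p z)) (th z) ≠ 0 := by
  intro hd
  have h0 : Mi F q (al z) (p z) (th z) = 0 := hinc.self_of_nhds
  have hΛ : (Λ : ℂ) ^ 3 ≠ 0 := pow_ne_zero 3 (by exact_mod_cast hC.Λ0.ne')
  have hs : sin (al z - F (th z)) = 0 := by
    have h1 := mul_deriv_Mi hC hm h0
    rw [hd, mul_zero] at h1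
    rcases mul_eq_zero.1 h1.symm with h2 | h2
    · exact absurd h2 hΛ
    · exact h2
  have hc : cos (al z - F (th z)) ^ 2 = 1 := by
    have := sin_sq_add_cos_sq (al z - F (th z))
    rw [hs] at this
    linear_combination this
  -- along each direction
  have key : ∀ v : ℂ × ℂ, deriv q (th z) * cos (al z - F (th z)) * fderiv ℂ al z v =
      deriv F (th z) * fderiv ℂ p z v := by
    intro v
    have hl : HasDerivAt (fun s : ℂ => z + s • v) v 0 := by
      have := ((hasDerivAt_id (0 : ℂ)).smul_const v).const_add z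
      simpa using this
    have e0 : z + (0 : ℂ) • v = z := by simp
    have g : ∀ {f : ℂ × ℂ → ℂ}, DifferentiableAt ℂ f z →
        HasDerivAt (fun s : ℂ => f (z + s • v)) (fderiv ℂ f z v) 0 := by
      intro f hf
      have h1 : HasFDerivAt f (fderiv ℂ f z) (z + (0 : ℂ) • v) := by rw [e0]; exact hf.hasFDerivAt
      exact h1.comp_hasDerivAt 0 hl
    have h2 := hasDerivAt_inc hC (A := fun s => al (z + s • v)) (P := fun s => p (z + s • v))
      (T := fun s => th (z + s • v)) (s := 0) (by simpa [e0] using hm) (g hal) (g hp) (g hth)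
    have h3 : HasDerivAt (fun s : ℂ => Mi F q (al (z + s • v)) (p (z + s • v))
        (th (z + s • v))) 0 0 := by
      have hcont : Tendsto (fun s : ℂ => z + s • v) (𝓝 0) (𝓝 z) := by
        have := hl.continuousAt.tendsto
        rwa [e0] at this
      have h4 : (fun s : ℂ => Mi F q (al (z + s • v)) (p (z + s • v)) (th (z + s • v)))
          =ᶠ[𝓝 0] fun _ => (0 : ℂ) := hcont.eventually hinc
      exact (hasDerivAt_const (0 : ℂ) (0 : ℂ)).congr_of_eventuallyEq h4
    have h5 := h2.unique h3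
    simp only [e0] at h5
    rw [hd, hs] at h5
    linear_combination h5
  have hv : deriv q (th z) ≠ 0 ∨ deriv F (th z) ≠ 0 := by
    by_contra hcon
    push Not at hcon
    have h1 := hC.wr _ hm
    rw [hcon.1, hcon.2] at h1
    apply hΛ
    rw [← h1]; ring
  have k1 := key (1, 0)
  have k2 := key (0, 1)
  set D := fderiv ℂ al z (1, 0) * fderiv ℂ p z (0, 1) - fderiv ℂ al z (0, 1) * fderiv ℂ p z (1, 0)
    with hD
  have e1 : deriv F (th z) * D = 0 := by
    rw [hD]
    linear_combination fderiv ℂ al z (0, 1) * k1 - fderiv ℂ al z (1, 0) * k2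
  have e2 : deriv q (th z) * cos (al z - F (th z)) * D = 0 := by
    rw [hD]
    linear_combination fderiv ℂ p z (0, 1) * k1 - fderiv ℂ p z (1, 0) * k2
  rcases hv with h | h
  · have h6 : cos (al z - F (th z)) ≠ 0 := by
      intro h7
      rw [h7] at hc
      norm_num at hc
    exact har ((mul_eq_zero.1 e2).resolve_left (mul_ne_zero h h6))
  · exact har ((mul_eq_zero.1 e1).resolve_left h)

/-- incidence and the reflected line from the relations `sA`, `sP`, `dP` -/
theorem inc_of_rel {a₁ p₁ a₂ p₂ x : ℂ} (sA : a₁ + a₂ = 2 * F x)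
    (sP : p₁ + p₂ = 2 * q x * cos ((a₁ - a₂) / 2))
    (dP : deriv F x * (p₁ - p₂) = 2 * deriv q x * sin ((a₁ - a₂) / 2)) :
    Mi F q a₂ p₂ x = 0 ∧ a₁ = 2 * F x - a₂ ∧ p₁ = 2 * q x * cos (F x - a₂) - p₂ := by
  have e3 : F x - a₂ = (a₁ - a₂) / 2 := by linear_combination (-1 / 2 : ℂ) * sA
  have e4 : a₂ - F x = -((a₁ - a₂) / 2) := by linear_combination (1 / 2 : ℂ) * sA
  refine ⟨?_, by linear_combination sA, ?_⟩
  · rw [Mi, e4, Complex.cos_neg, Complex.sin_neg]
    linear_combination (-1 / 2 : ℂ) * deriv F x * sP + (1 / 2 : ℂ) * dP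
  · rw [e3]
    linear_combination sP

end

end Vale.Agent.P097.H320.W5
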