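import Vale.Agent.P097.TC.Defs5
import Vale.Agent.P097.H6.Restr
import Vale.Agent.P097.H85.W5F
import Vale.Agent.P097.H320.W5.Smp

/-!
# P097 / case [c] / row W5-INST: the static world `A5.W5` from the base, the global world and the
position on the continuation domain
-/

set_option linter.all false

open Complex Metric Filter Topology Set MeasureTheory
open scoped ComplexConjugate

namespace Vale.Agent.P097.H320.W5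

open Vale.Agent.P097 Vale.Agent.P097.TA Vale.Agent.P097.H202 Vale.Agent.P097.SC
open Vale.Agent.P097.H85 Vale.Agent.P097.H929 Vale.Agent.P097.H543 Vale.Agent.P097.H456.C
open Vale.Agent.P097.H6 Vale.Agent.P097.TC

variable {κ Λ b : ℝ} {H Φ : ℂ → ℂ} {r e : ℝ} {α p : ℂ → ℂ → ℂ} {J F q Q : ℂ → ℂ}
  {e₁ c₀ : ℝ} {R : ℂ → ℝ} {A P θ : ℂ × ℂ → ℂ} {n : ℤ} {ε b₀ : ℝ}

/-- line `n` (`f = A` or `f = P`) on its continuation domain, as a function on `ℂ × ℂ` -/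
noncomputable abbrev Lc (R : ℂ → ℝ) (f : ℂ × ℂ → ℂ) (e₁ ε b₀ : ℝ) (n : ℤ) : ℂ × ℂ → ℂ :=
  fun z => gx b₀ (Ln f n) (Bn R e₁ ε b₀ n) z.1 z.2

/-- the position between the lines `n - 1` and `n` on the continuation domain -/
abbrev PsnW (b : ℝ) (F q : ℂ → ℂ) (R : ℂ → ℝ) (A P : ℂ × ℂ → ℂ) (e₁ ε b₀ : ℝ) (n : ℤ)
    (th : ℂ × ℂ → ℂ) : Prop :=
  CC.Psn b F q (MM R A P e₁ ε b₀ n ∩ MM R A P e₁ ε b₀ (n - 1)) (Lc R A e₁ ε b₀ n)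
    (Lc R P e₁ ε b₀ n) (Lc R A e₁ ε b₀ (n - 1)) (Lc R P e₁ ε b₀ (n - 1)) th

theorem cv_of_bs (B : CC.Bs Λ b F q Q) : Cv Λ b F q :=
  ⟨B.Λ0, B.b0, B.dF, B.dq, fun x hx => B.wr x hx⟩

/-- reflected line and incidence on the whole continuation domain -/
theorem rel_of {th : ℂ × ℂ → ℂ} (T : PsnW b F q R A P e₁ ε b₀ n th) {z : ℂ × ℂ}
    (hz : z ∈ MM R A P e₁ ε b₀ n ∩ MM R A P e₁ ε b₀ (n - 1)) :
    Mi F q (Lc R A e₁ ε b₀ (n - 1) z) (Lc R P e₁ ε b₀ (n - 1) z) (th z) = 0 ∧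
    Lc R A e₁ ε b₀ n z = 2 * F (th z) - Lc R A e₁ ε b₀ (n - 1) z ∧
    Lc R P e₁ ε b₀ n z = 2 * q (th z) * cos (F (th z) - Lc R A e₁ ε b₀ (n - 1) z) -
      Lc R P e₁ ε b₀ (n - 1) z :=
  inc_of_rel (T.sA z hz) (T.sP z hz) (T.dP z hz)

/-- simple roots at all points of the continuation domain with `w ≠ 0` -/
theorem smp_MM (hB : CC.Base κ Λ b H Φ r e α p J F q Q e₁ c₀ R A P θ)
    (hn1 : |(n : ℝ)| * ε ≤ b₀) (hn2 : |((n - 1 : ℤ) : ℝ)| * ε ≤ b₀) {th : ℂ × ℂ → ℂ}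
    (T : PsnW b F q R A P e₁ ε b₀ n th) {z : ℂ × ℂ}
    (hz : z ∈ MM R A P e₁ ε b₀ n ∩ MM R A P e₁ ε b₀ (n - 1)) (hw : z.2 ≠ 0) :
    deriv (Mi F q (Lc R A e₁ ε b₀ (n - 1) z) (Lc R P e₁ ε b₀ (n - 1) z)) (th z) ≠ 0 := by
  obtain ⟨xk1, xk2⟩ := ext_MM (n := n - 1) (b₀ := b₀) (ε := ε) hB
  have hRj := rh_MM hB hn1
  have hRk := rh_MM hB hn2
  have hO : IsOpen (MM R A P e₁ ε b₀ n ∩ MM R A P e₁ ε b₀ (n - 1)) := hRj.dn.op.inter hRk.dn.op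
  refine smp_of_area (cv_of_bs hB.bs) ?_ ?_ (T.an z hz).differentiableAt (T.mem z hz) ?_ ?_
  · exact (xk1.jd z hz.2.1).differentiableAt (xk1.dn.op.mem_nhds hz.2.1)
  · exact (xk2.jd z hz.2.2).differentiableAt (xk2.dn.op.mem_nhds hz.2.2)
  · filter_upwards [hO.mem_nhds hz] with y hy
    exact (rel_of T hy).1
  · have h1 := area_MM (n := n - 1) hB hn2 hz.2
    have h2 := (label_lt hB (t := z.1) (w := z.2) hz.2).1.trans_le hB.ee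
    rw [h1]
    exact hB.en.ctx.ln.Jne z.2 h2 hw

/-- **row W5-INST** from the position on the continuation domain -/
theorem w5_psn {m : ℝ} {Ψ : ℂ → ℂ} {S : Set ℝ} {Pt : ℝ → ℂ} {c k : ℝ → ℝ} {y₁ y₂ s s' : ℝ}
    (hB : CC.Base κ Λ b H Φ r e α p J F q Q e₁ c₀ R A P θ)
    (G : GW R A P e₁ n ε b₀ m Ψ S Pt c k y₁ y₂ s s') (hg : A5.Gro b F q) {th : ℂ × ℂ → ℂ}
    (T : PsnW b F q R A P e₁ ε b₀ n th) :
    ∃ K : ℝ, ∀ {y₀ u₀ σ : ℝ}, u₀ ∈ S → σ < s →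
      (∀ δ > 0, RegB (MM R A P e₁ ε b₀ n) b₀ S Pt c y₀ u₀ (σ - δ)) →
      (∀ δ > 0, RegB (MM R A P e₁ ε b₀ (n - 1)) b₀ S Pt c y₀ u₀ (s - δ)) →
      A5.W5 Λ b F q b₀ m Ψ (MM R A P e₁ ε b₀ n) (MM R A P e₁ ε b₀ (n - 1))
        (Wn R e₁ ε b₀ n ∩ Wne) S Pt c k K y₀ u₀ σ s (Lc R A e₁ ε b₀ (n - 1))
        (Lc R P e₁ ε b₀ (n - 1)) th J := by
  obtain ⟨⟨hn1, hn2⟩, hR1, hR2⟩ := G.rh hB
  obtain ⟨K, hK, hcone⟩ := G.coneB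
  obtain ⟨xk1, xk2⟩ := ext_MM (n := n - 1) (b₀ := b₀) (ε := ε) hB
  refine ⟨K, fun {y₀ u₀ σ} hu hσ hrj hrk => ?_⟩
  have hu0 : ∀ u ∈ S, u ≠ 0 := fun u hu h0 => G.irr u hu ⟨0, by simp [h0]⟩
  have hue : ‖(u₀ : ℂ)‖ < e := by
    rw [norm_real, Real.norm_eq_abs]
    exact (G.Se u₀ hu).trans_le hB.ee
  have hJ : DifferentiableAt ℂ J (u₀ : ℂ) :=
    hB.en.ctx.ln.jJ.differentiableAt (isOpen_ball.mem_nhds (by
      rw [mem_ball_zero_iff]; exact hue))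
  exact
    { crv := ⟨cv_of_bs hB.bs, hB.bs.Fp, hB.bs.qp, hg⟩
      bm := G.bm
      cA := G.Sc
      u0 := hu
      uz := hu0
      cR := G.cR
      cc := G.cc
      hb := fun u hu => by rw [G.Pi u hu]; exact G.bR u hu
      σs := hσ
      rhj := hR1
      rhk := hR2
      Uj := G.uj
      Uk := G.uk
      regj := hrj
      regk := hrk
      oB := ((isOpen_Bn hB).inter (isOpen_Bn hB)).inter isOpen_Wne
      Bj := fun z hz => Bn_sub_MM hB hn1 hz.1.1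
      Bk := fun z hz => Bn_sub_MM hB hn2 hz.1.2
      K0 := hK
      coneU := hcone
      dal := fun z hz => (xk1.jd z hz.1).mono (fun _ h => h.1)
      dp := fun z hz => (xk2.jd z hz.2).mono (fun _ h => h.2)
      dth := fun z hz => (T.an z hz.1).differentiableAt.differentiableWithinAt
      mem := fun z hz => T.mem z hz.1
      inc := fun z hz => (rel_of T hz.1).1
      smp := fun z hz => smp_MM hB hn1 hn2 T hz.1 hz.2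
      area := fun z hz => area_MM (n := n - 1) hB hn2 hz
      cJ := hJ.continuousAt
      J0 := hB.en.ctx.ln.Jne (u₀ : ℂ) hue (by exact_mod_cast hu0 u₀ hu) }

/-- the same at a point of the thin layer -/
theorem w5_psn_lay {m : ℝ} {Ψ : ℂ → ℂ} {S : Set ℝ} {Pt : ℝ → ℂ} {c k : ℝ → ℝ} {y₁ y₂ s s' : ℝ}
    (hB : CC.Base κ Λ b H Φ r e α p J F q Q e₁ c₀ R A P θ)
    (G : GW R A P e₁ n ε b₀ m Ψ S Pt c k y₁ y₂ s s') (hg : A5.Gro b F q) {th : ℂ × ℂ → ℂ}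
    (T : PsnW b F q R A P e₁ ε b₀ n th) :
    ∃ K : ℝ, ∀ {y₀ u₀ σ : ℝ}, σ ≤ s' →
      Lay (MM R A P e₁ ε b₀ n) (MM R A P e₁ ε b₀ (n - 1)) b₀ S Pt c y₀ u₀ σ s →
      A5.W5 Λ b F q b₀ m Ψ (MM R A P e₁ ε b₀ n) (MM R A P e₁ ε b₀ (n - 1))
        (Wn R e₁ ε b₀ n ∩ Wne) S Pt c k K y₀ u₀ σ s (Lc R A e₁ ε b₀ (n - 1))
        (Lc R P e₁ ε b₀ (n - 1)) th J := by
  obtain ⟨K, hK⟩ := w5_psn hB G hg T
  exact ⟨K, fun {y₀ u₀ σ} h1 h2 => hK h2.u0 (h1.trans_lt G.ss) h2.regj h2.regk⟩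

/-- **row W5-INST** : `K`, `al`, `p`, `th`, `J` do not depend on the point -/
theorem w5_of {m : ℝ} {Ψ : ℂ → ℂ} {S : Set ℝ} {Pt : ℝ → ℂ} {c k : ℝ → ℝ} {y₁ y₂ s s' : ℝ}
    (hB : CC.Base κ Λ b H Φ r e α p J F q Q e₁ c₀ R A P θ)
    (G : GW R A P e₁ n ε b₀ m Ψ S Pt c k y₁ y₂ s s') (hg : A5.Gro b F q) :
    ∃ (K : ℝ) (th : ℂ × ℂ → ℂ), PsnW b F q R A P e₁ ε b₀ n th ∧
      (∀ z ∈ Wn R e₁ ε b₀ n, th z = Th θ n z) ∧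
      ∀ {y₀ u₀ σ : ℝ}, u₀ ∈ S → σ < s →
      (∀ δ > 0, RegB (MM R A P e₁ ε b₀ n) b₀ S Pt c y₀ u₀ (σ - δ)) →
      (∀ δ > 0, RegB (MM R A P e₁ ε b₀ (n - 1)) b₀ S Pt c y₀ u₀ (s - δ)) →
      A5.W5 Λ b F q b₀ m Ψ (MM R A P e₁ ε b₀ n) (MM R A P e₁ ε b₀ (n - 1))
        (Wn R e₁ ε b₀ n ∩ Wne) S Pt c k K y₀ u₀ σ s (Lc R A e₁ ε b₀ (n - 1))
        (Lc R P e₁ ε b₀ (n - 1)) th J := by
  obtain ⟨th, T, hth⟩ := H85.psn_MM hB G.nε G.ε0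
  obtain ⟨K, hK⟩ := w5_psn hB G hg T
  exact ⟨K, th, T, hth, hK⟩

end Vale.Agent.P097.H320.W5
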